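import Vale.Agent.P097.H161.Inst

/-! # P097 / H161: asymptotics of the map at `- ∞` (isotropic law, `m = 3`). -/

set_option linter.all false

open Complex Metric Filter Topology Set
open scoped ComplexConjugate

namespace Vale.Agent.P097.H161

open Vale.Agent.P097.H244

theorem re_ell {z : ℂ} (hz : |z.im| < 2 * Real.pi) : (ell z).re = Real.log ‖Ex z‖ := by
  rw [← exp_ell hz, Complex.norm_exp, Real.log_exp]

theorem deriv_neg_bd {z : ℂ} (hz : z ∈ PP (2 * Real.pi)) : ‖deriv ell (-z)‖ ≤ 2 / z.re := by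
  have hx := hz.1
  have h0 : z ≠ 0 := by
    rintro rfl; exact absurd hz.1 (by simp)
  have he : Complex.exp z - 1 ≠ 0 := sub_ne_zero.2 (exp_ne_one h0 hz.2)
  rw [(ell_deriv (neg_mem hz.2) (neg_ne_zero.2 h0)).deriv]
  have e1 : gg (-z) / (-z) = 1 / z - 1 / (Complex.exp z - 1) := by
    rw [gg, neg_neg, Ex_of_ne h0, one_div_div]
    field_simp
    ring
  have h1 : ‖1 / z‖ ≤ 1 / z.re := by
    rw [norm_div, norm_one]
    exact one_div_le_one_div_of_le hx (Complex.re_le_norm z)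
  have h2 : ‖1 / (Complex.exp z - 1)‖ ≤ 1 / z.re := by
    rw [norm_div, norm_one]
    refine one_div_le_one_div_of_le hx ?_
    have h3 := norm_sub_norm_le (Complex.exp z) 1
    rw [Complex.norm_exp, norm_one] at h3
    have h4 := Real.add_one_le_exp z.re
    linarith
  rw [e1]
  calc ‖1 / z - 1 / (Complex.exp z - 1)‖ ≤ ‖1 / z‖ + ‖1 / (Complex.exp z - 1)‖ := norm_sub_le _ _
    _ ≤ 1 / z.re + 1 / z.re := add_le_add h1 h2
    _ = 2 / z.re := by ring

theorem im_neg_bd {z : ℂ} (hz : z ∈ PP (2 * Real.pi)) :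
    |(ell (-z)).im| ≤ 2 / z.re * |z.im| := by
  have hx := hz.1
  have hL : |z.im| < 2 * Real.pi := hz.2
  set S : Set ℂ := {w : ℂ | w.re = z.re ∧ |w.im| ≤ |z.im|} with hS
  have hSP : ∀ w ∈ S, w ∈ PP (2 * Real.pi) := by
    rintro w ⟨h1, h2⟩
    exact ⟨by rw [h1]; exact hx, h2.trans_lt hL⟩
  have hconv : Convex ℝ S := by
    intro a ha b hb s t hs ht hst
    obtain ⟨a1, a2⟩ := ha
    obtain ⟨b1, b2⟩ := hb
    constructor
    · simp only [Complex.add_re, Complex.real_smul, Complex.re_ofReal_mul, a1, b1]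
      rw [← add_mul, hst, one_mul]
    · simp only [Complex.add_im, Complex.real_smul, Complex.im_ofReal_mul]
      calc |s * a.im + t * b.im| ≤ |s * a.im| + |t * b.im| := abs_add_le _ _
        _ = s * |a.im| + t * |b.im| := by rw [abs_mul, abs_mul, abs_of_nonneg hs, abs_of_nonneg ht]
        _ ≤ s * |z.im| + t * |z.im| := by gcongr
        _ = |z.im| := by rw [← add_mul, hst, one_mul]
  have hd : ∀ w ∈ S, HasDerivWithinAt (fun w => ell (-w)) (-deriv ell (-w)) S w := by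
    intro w hw
    have h1 : HasDerivAt ell (deriv ell (-w)) (-w) := (ell_dAt (neg_mem (hSP w hw).2)).hasDerivAt
    have h2 : HasDerivAt (fun w : ℂ => -w) (-1) w := hasDerivAt_neg w
    have h3 := HasDerivAt.comp w h1 h2
    rw [mul_neg_one] at h3
    exact h3.hasDerivWithinAt
  have hb : ∀ w ∈ S, ‖-deriv ell (-w)‖ ≤ 2 / z.re := by
    intro w hw
    rw [norm_neg]
    have := deriv_neg_bd (hSP w hw)
    rwa [hw.1] at this
  have hz' : z ∈ S := ⟨rfl, le_rfl⟩
  have hr : ((z.re : ℝ) : ℂ) ∈ S := ⟨by simp, by simp⟩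
  have h := hconv.norm_image_sub_le_of_norm_hasDerivWithin_le hd hb hr hz'
  have him : (ell (-((z.re : ℝ) : ℂ))).im = 0 := by
    have h4 := ell_conj (z := -((z.re : ℝ) : ℂ)) (by
      have := neg_mem (hSP _ hr).2
      exact this)
    rw [map_neg, Complex.conj_ofReal] at h4
    have := congrArg Complex.im h4
    rw [Complex.conj_im] at this
    linarith
  have h5 : (ell (-z) - ell (-((z.re : ℝ) : ℂ))).im = (ell (-z)).im := by
    rw [Complex.sub_im, him, sub_zero]
  have h6 : z - ((z.re : ℝ) : ℂ) = (z.im : ℂ) * I := by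
    apply Complex.ext <;> simp
  have h7 : ‖z - ((z.re : ℝ) : ℂ)‖ = |z.im| := by
    rw [h6, norm_mul, Complex.norm_I, mul_one, Complex.norm_real, Real.norm_eq_abs]
  rw [h7] at h
  rw [← h5]
  exact (Complex.abs_im_le_norm _).trans h

theorem re_neg_bd {z : ℂ} (hz : z ∈ PP (2 * Real.pi)) (h8 : 8 ≤ z.re) : (ell (-z)).re ≤ -1 := by
  have h0 : z ≠ 0 := by
    rintro rfl; exact absurd hz.1 (by simp)
  have hE : Ex (-z) ≠ 0 := Ex_ne (neg_mem hz.2)
  rw [re_ell (neg_mem hz.2)]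
  have h1 : ‖Ex (-z)‖ ≤ 1 / 4 := by
    rw [Ex_of_ne (neg_ne_zero.2 h0), norm_div, norm_neg]
    have h2 : ‖Complex.exp (-z) - 1‖ ≤ 2 := by
      refine (norm_sub_le _ _).trans ?_
      rw [Complex.norm_exp, norm_one, Complex.neg_re]
      have : Real.exp (-z.re) ≤ 1 := Real.exp_le_one_iff.2 (by linarith)
      linarith
    have h3 : 8 ≤ ‖z‖ := h8.trans (Complex.re_le_norm z)
    rw [div_le_iff₀ (by linarith)]
    linarith
  have h4 : Real.log ‖Ex (-z)‖ ≤ Real.log (1 / 4) := Real.log_le_log (norm_pos_iff.2 hE) h1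
  have h5 : Real.log (1 / 4) ≤ -1 := by
    rw [Real.log_le_iff_le_exp (by norm_num)]
    have h6 : Real.exp (-1) = (Real.exp 1)⁻¹ := Real.exp_neg 1
    have h7 := Real.exp_one_lt_d9
    rw [h6, one_div]
    exact inv_anti₀ (Real.exp_pos 1) (by linarith)
  exact h4.trans h5

section

variable {σ f : ℂ → ℂ} {r : ℝ} {F : ℂ → ℂ}

theorem sig_conj (H : Inv ell 1 (2 * Real.pi) σ) {V : ℂ} (hV : V ∈ WW 1 (2 * Real.pi)) :
    conj V ∈ WW 1 (2 * Real.pi) ∧ σ (conj V) = conj (σ V) := by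
  have hW : conj V ∈ WW 1 (2 * Real.pi) := by
    refine ⟨by rw [Complex.conj_re]; exact hV.1, ?_⟩
    rw [Complex.conj_im, abs_neg]; exact hV.2
  refine ⟨hW, ?_⟩
  have h1 := H.mem V hV
  have h2 : conj (σ V) ∈ PP (2 * Real.pi) := by
    refine ⟨by rw [Complex.conj_re]; exact h1.1, ?_⟩
    show |(conj (σ V)).im| < _
    rw [Complex.conj_im, abs_neg]; exact h1.2
  have h3 := KDe.lip (H.mem _ hW) h2
  rw [H.eq _ hW, ell_conj h1.2, H.eq _ hV, map_neg, sub_self, norm_zero] at h3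
  have h4 : ‖σ (conj V) - conj (σ V)‖ = 0 := le_antisymm (by linarith) (norm_nonneg _)
  exact sub_eq_zero.1 (norm_eq_zero.1 h4)

theorem T_conj (H : Inv ell 1 (2 * Real.pi) σ) {V : ℂ} (hV : V ∈ WW 1 (2 * Real.pi)) :
    TT ell σ (conj V) = conj (TT ell σ V) := by
  have h := sig_conj H hV
  rw [KDe.T_eq H h.1, KDe.T_eq H hV, h.2]
  simp

theorem sig_re (H : Inv ell 1 (2 * Real.pi) σ) {V : ℂ} (hV : V ∈ WW 1 (2 * Real.pi)) :
    -V.re < (σ V).re := by
  have h1 := (KDe.Tmem H hV).1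
  rw [KDe.T_eq H hV] at h1
  simp at h1
  linarith

theorem T_im (H : Inv ell 1 (2 * Real.pi) σ) {V : ℂ} (hV : V ∈ WW 1 (2 * Real.pi)) :
    |(TT ell σ V).im| ≤ 4 / (σ V).re * |V.im| := by
  have h1 := H.mem V hV
  have h2 := im_neg_bd h1
  have h3 := KDe.imabs h1
  rw [H.eq V hV, Complex.neg_im, abs_neg] at h3
  have hx := h1.1
  have h4 : |(σ V).im| ≤ 2 * |V.im| := by linarith
  calc |(TT ell σ V).im| ≤ 2 / (σ V).re * |(σ V).im| := h2
    _ ≤ 2 / (σ V).re * (2 * |V.im|) := by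
        apply mul_le_mul_of_nonneg_left h4
        positivity
    _ = 4 / (σ V).re * |V.im| := by ring

/-- the ratio -/
noncomputable def gr (F : ℂ → ℂ) (V : ℂ) : ℂ :=
  (F V * exp (V / 2)) / (F (conj V) * exp (conj V / 2))

theorem gr_step (H : Inv ell 1 (2 * Real.pi) σ) (E : Ext ell σ f 1 (2 * Real.pi) (1 / 2) r F)
    {V : ℂ} (hV : V ∈ WW 1 (2 * Real.pi)) :
    gr F V = exp (-(2 * (TT ell σ V).im) * I) * gr F (TT ell σ V) := by
  have hc := sig_conj H hV
  have hT := KDe.Tmem H hV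
  have hcT := sig_conj H hT
  have key : ∀ U ∈ WW 1 (2 * Real.pi), F U * exp (U / 2) =
      exp (-TT ell σ U) * (F (TT ell σ U) * exp (TT ell σ U / 2)) := by
    intro U hU
    have h1 := E.law U hU
    have h2 : σ U = -U - TT ell σ U := by
      rw [KDe.T_eq H hU]; simp
    have h3 : exp (((1 / 2 : ℝ) : ℂ) * σ U) * exp (U / 2) =
        exp (-TT ell σ U) * exp (TT ell σ U / 2) := by
      rw [← Complex.exp_add, ← Complex.exp_add]
      congr 1
      rw [h2]
      push_cast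
      ring
    rw [h1]
    linear_combination F (TT ell σ U) * h3
  have e1 := key V hV
  have e2 := key _ hc.1
  rw [T_conj H hV] at e2
  have n1 : F (TT ell σ V) * exp (TT ell σ V / 2) ≠ 0 :=
    mul_ne_zero (E.ne _ hT) (Complex.exp_ne_zero _)
  have n2 : F (conj (TT ell σ V)) * exp (conj (TT ell σ V) / 2) ≠ 0 :=
    mul_ne_zero (E.ne _ hcT.1) (Complex.exp_ne_zero _)
  have n3 : exp (-conj (TT ell σ V)) ≠ 0 := Complex.exp_ne_zero _
  have h4 : exp (-TT ell σ V) = exp (-(2 * (TT ell σ V).im) * I) * exp (-conj (TT ell σ V)) := by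
    rw [← Complex.exp_add]
    congr 1
    apply Complex.ext
    · simp
    · simp; ring
  unfold gr
  rw [e1, e2, h4]
  field_simp

theorem gr_real (F : ℂ → ℂ) {x : ℝ} (h : F x ≠ 0) : gr F x = 1 := by
  unfold gr
  rw [Complex.conj_ofReal]
  exact div_self (mul_ne_zero h (Complex.exp_ne_zero _))

theorem gr_cont (H : Inv ell 1 (2 * Real.pi) σ) (E : Ext ell σ f 1 (2 * Real.pi) (1 / 2) r F) :
    ContinuousOn (gr F) (WW 1 (2 * Real.pi)) := by
  intro V hV
  have hc := sig_conj H hV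
  refine ContinuousAt.continuousWithinAt ?_
  refine ContinuousAt.div ?_ ?_ (mul_ne_zero (E.ne _ hc.1) (Complex.exp_ne_zero _))
  · exact (E.dW V hV).continuousAt.mul (by fun_prop)
  · refine ContinuousAt.mul ?_ (by fun_prop)
    exact ContinuousAt.comp (g := F) (f := fun V => conj V) (E.dW _ hc.1).continuousAt
      Complex.continuous_conj.continuousAt

/-- reduction to the rectangle -/
theorem reduce (H : Inv ell 1 (2 * Real.pi) σ) (E : Ext ell σ f 1 (2 * Real.pi) (1 / 2) r F)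
    (n : ℕ) : ∀ V ∈ WW 1 (2 * Real.pi), V.re ≤ -1 → (σ ((TT ell σ)^[n] V)).re < 8 →
    ∃ (θ : ℝ) (U : ℂ), U ∈ WW 1 (2 * Real.pi) ∧ |θ| ≤ 2 * |V.im| ∧ -8 ≤ U.re ∧ U.re ≤ -1 ∧
      |U.im| ≤ |V.im| ∧ gr F V = exp (θ * I) * gr F U := by
  induction n with
  | zero =>
    intro V hV h1 h2
    have h3 := sig_re H hV
    simp only [Function.iterate_zero, id_eq] at h2
    exact ⟨0, V, hV, by simp, by linarith, h1, le_rfl, by simp⟩
  | succ n ih =>
    intro V hV h1 h2
    rcases lt_or_ge (σ V).re 8 with h8 | h8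
    · have h3 := sig_re H hV
      exact ⟨0, V, hV, by simp, by linarith, h1, le_rfl, by simp⟩
    · rw [Function.iterate_succ_apply] at h2
      have hT := KDe.Tmem H hV
      have h3 : (TT ell σ V).re ≤ -1 := re_neg_bd (H.mem V hV) h8
      obtain ⟨θ, U, hU, a1, a2, a3, a4, a5⟩ := ih _ hT h3 h2
      have h4 := T_im H hV
      have h5 : 4 / (σ V).re ≤ 1 / 2 := by
        rw [div_le_iff₀ (by linarith)]; linarith
      have h6 : |(TT ell σ V).im| ≤ 1 / 2 * |V.im| :=
        h4.trans (mul_le_mul_of_nonneg_right h5 (abs_nonneg _))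
      refine ⟨-(2 * (TT ell σ V).im) + θ, U, hU, ?_, a2, a3, ?_, ?_⟩
      · calc |-(2 * (TT ell σ V).im) + θ| ≤ |-(2 * (TT ell σ V).im)| + |θ| := abs_add_le _ _
          _ = 2 * |(TT ell σ V).im| + |θ| := by
            rw [abs_neg, abs_mul, abs_of_pos (zero_lt_two' ℝ)]
          _ ≤ 2 * |V.im| := by linarith
      · linarith [abs_nonneg V.im]
      · rw [gr_step H E hV, a5, ← mul_assoc, ← Complex.exp_add]
        congr 2
        push_cast
        ring

theorem gr_lim (H : Inv ell 1 (2 * Real.pi) σ) (E : Ext ell σ f 1 (2 * Real.pi) (1 / 2) r F)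
    {ε : ℝ} (hε : 0 < ε) :
    ∃ M : ℝ, ∀ V ∈ WW 1 (2 * Real.pi), V.re < -M → ‖gr F V - 1‖ < ε := by
  have hpi := Real.pi_gt_three
  have hpi4 := Real.pi_lt_four
  -- the rectangle
  set Q : Set ℂ := (Icc (-8) (-1)) ×ℂ (Icc (-1) 1) with hQ
  have hQc : IsCompact Q := isCompact_Icc.reProdIm isCompact_Icc
  have hQW : Q ⊆ WW 1 (2 * Real.pi) := by
    intro z hz
    rw [hQ, Complex.mem_reProdIm] at hz
    refine ⟨by linarith [hz.1.2], ?_⟩
    rw [abs_lt]
    constructor <;> linarith [hz.2.1, hz.2.2]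
  have hunif := hQc.uniformContinuousOn_of_continuous ((gr_cont H E).mono hQW)
  rw [Metric.uniformContinuousOn_iff] at hunif
  obtain ⟨δ, hδ, hδ2⟩ := hunif (ε / 2) (by positivity)
  -- continuity of exp at 0
  have hexp : ∀ᶠ θ : ℝ in 𝓝 0, ‖exp (θ * I) - 1‖ < ε / 2 / (1 + ε / 2) := by
    have hc : Continuous fun θ : ℝ => ‖exp (θ * I) - 1‖ := by fun_prop
    have := hc.tendsto 0
    simp only [Complex.ofReal_zero, zero_mul, Complex.exp_zero, sub_self, norm_zero] at this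
    exact this.eventually_lt_const (by positivity)
  obtain ⟨δ', hδ', hδ3⟩ := Metric.eventually_nhds_iff_ball.1 hexp
  set η := min (min 1 (δ / 2)) (δ' / 8) with hη
  have hη0 : 0 < η := by positivity
  have hη1 : η ≤ 1 := (min_le_left _ _).trans (min_le_left _ _)
  have hη2 : η ≤ δ / 2 := (min_le_left _ _).trans (min_le_right _ _)
  have hη3 : η ≤ δ' / 8 := min_le_right _ _
  refine ⟨max 8 (16 / η), fun V hV hre => ?_⟩
  have hx := sig_re H hV
  have hx8 : 8 ≤ (σ V).re := by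
    have := le_max_left 8 (16 / η)
    linarith
  have hx2 : 16 / η < (σ V).re := by
    have := le_max_right 8 (16 / η)
    linarith
  have hT := KDe.Tmem H hV
  have h3 : (TT ell σ V).re ≤ -1 := re_neg_bd (H.mem V hV) hx8
  have hVim : |V.im| ≤ 4 := by
    have := hV.2
    linarith
  have him : |(TT ell σ V).im| ≤ η := by
    refine (T_im H hV).trans ?_
    rw [div_lt_iff₀ hη0] at hx2
    rw [div_mul_eq_mul_div, div_le_iff₀ (by linarith)]
    nlinarith
  -- some iterate is small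
  have horb := KDe.orbit H hT
  have hex : ∃ n, (σ ((TT ell σ)^[n] (TT ell σ V))).re < 8 := by
    have h1 := horb.norm
    rw [norm_zero] at h1
    obtain ⟨n, hn⟩ := (h1.eventually_lt_const (show (0 : ℝ) < 1 by norm_num)).exists
    refine ⟨n, ?_⟩
    have h2 := KDe.lipzV H (KDe.it_mem H hT n)
    have h4 := Complex.re_le_norm (σ ((TT ell σ)^[n] (TT ell σ V)))
    linarith
  obtain ⟨n, hn⟩ := hex
  obtain ⟨θ, U, hU, a1, a2, a3, a4, a5⟩ := reduce H E n _ hT h3 hn
  have hUim : |U.im| ≤ η := a4.trans him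
  have hUQ : U ∈ Q := by
    rw [hQ, Complex.mem_reProdIm]
    exact ⟨⟨a2, a3⟩, abs_le.1 (hUim.trans hη1)⟩
  have hRQ : ((U.re : ℝ) : ℂ) ∈ Q := by
    rw [hQ, Complex.mem_reProdIm]
    simp [a2, a3]
  have hgU : ‖gr F U - 1‖ < ε / 2 := by
    have h1 := hδ2 U hUQ _ hRQ (by
      rw [dist_eq_norm]
      have h6 : U - ((U.re : ℝ) : ℂ) = (U.im : ℂ) * I := by
        apply Complex.ext <;> simp
      rw [h6, norm_mul, Complex.norm_I, mul_one, Complex.norm_real, Real.norm_eq_abs]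
      linarith)
    rwa [gr_real F (E.ne _ (hQW hRQ)), dist_eq_norm] at h1
  -- total angle
  set τ : ℝ := -(2 * (TT ell σ V).im) + θ with hτ
  have hgV : gr F V = exp (τ * I) * gr F U := by
    rw [gr_step H E hV, a5, ← mul_assoc, ← Complex.exp_add]
    congr 2
    rw [hτ]
    push_cast
    ring
  have hτ1 : |τ| ≤ 4 * η := by
    calc |-(2 * (TT ell σ V).im) + θ| ≤ |-(2 * (TT ell σ V).im)| + |θ| := abs_add_le _ _
      _ = 2 * |(TT ell σ V).im| + |θ| := by
        rw [abs_neg, abs_mul, abs_of_pos (zero_lt_two' ℝ)]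
      _ ≤ 4 * η := by linarith
  have hτ2 := hδ3 τ (by
    rw [mem_ball_zero_iff, Real.norm_eq_abs]
    linarith)
  have hn1 : ‖gr F U‖ ≤ 1 + ε / 2 := by
    have h1 : gr F U = (gr F U - 1) + 1 := by ring
    rw [h1]
    refine (norm_add_le _ _).trans ?_
    rw [norm_one]
    linarith
  have h9 : gr F V - 1 = (exp (τ * I) - 1) * gr F U + (gr F U - 1) := by
    rw [hgV]; ring
  rw [h9]
  calc ‖(exp (τ * I) - 1) * gr F U + (gr F U - 1)‖
      ≤ ‖(exp (τ * I) - 1) * gr F U‖ + ‖gr F U - 1‖ := norm_add_le _ _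
    _ = ‖exp (τ * I) - 1‖ * ‖gr F U‖ + ‖gr F U - 1‖ := by rw [norm_mul]
    _ ≤ ε / 2 / (1 + ε / 2) * (1 + ε / 2) + ‖gr F U - 1‖ := by
      gcongr
    _ = ε / 2 + ‖gr F U - 1‖ := by
      rw [div_mul_cancel₀ _ (by positivity)]
    _ < ε := by linarith

end

theorem ell_bot : Tendsto (fun y : ℝ => (ell (I * y)).re) (𝓝[<] (2 * Real.pi)) atBot := by
  have hpi := Real.pi_pos
  have hI : Ioo 0 (2 * Real.pi) ∈ 𝓝[<] (2 * Real.pi) := Ioo_mem_nhdsLT (by positivity)
  have hmem : ∀ y ∈ Ioo 0 (2 * Real.pi), |(I * (y : ℂ)).im| < 2 * Real.pi := by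
    intro y hy
    simpa [abs_of_pos hy.1] using hy.2
  have h1 : (fun y : ℝ => (ell (I * y)).re) =ᶠ[𝓝[<] (2 * Real.pi)]
      fun y => Real.log ‖Ex (I * y)‖ := by
    filter_upwards [hI] with y hy
    rw [re_ell (hmem y hy)]
  refine Tendsto.congr' h1.symm ?_
  refine Real.tendsto_log_nhdsGT_zero.comp ?_
  rw [tendsto_nhdsWithin_iff]
  constructor
  · have hc : Continuous fun y : ℝ => ‖Ex (I * y)‖ :=
      (Ex_cont.comp (continuous_const.mul Complex.continuous_ofReal)).norm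
    have h5 := (hc.tendsto (2 * Real.pi)).mono_left (nhdsWithin_le_nhds (s := Iio (2 * Real.pi)))
    have h6 : Ex (I * ((2 * Real.pi : ℝ) : ℂ)) = 0 := by
      have e : I * ((2 * Real.pi : ℝ) : ℂ) = 2 * Real.pi * I := by push_cast; ring
      rw [e, Ex_of_ne (by simp [hpi.ne']), Complex.exp_two_pi_mul_I]
      simp
    rw [h6, norm_zero] at h5
    exact h5
  · filter_upwards [hI] with y hy
    exact norm_pos_iff.2 (Ex_ne (hmem y hy))

/-- no germ for `m = 3` -/
theorem kill3 {f : ℂ → ℂ} (hf : AnalyticAt ℂ f 0)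
    (hne : ¬ ∀ᶠ A in 𝓝 (0 : ℂ), f A = 0) (hodd : ∀ᶠ A in 𝓝 (0 : ℂ), f (-A) = -f A)
    (hch : ∀ᶠ z in 𝓝 (0 : ℂ), f (ell z) = -(exp (((1 / 2 : ℝ) : ℂ) * z) * f (ell (-z)))) :
    False := by
  have hpi := Real.pi_pos
  obtain ⟨r, G⟩ := exists_germ (κ := 1) one_pos hf hne hodd hch
  obtain ⟨σ, H⟩ := KDe.exists_inv
  obtain ⟨F, E⟩ := exists_ext KDe H G
  have hI : Ioo 0 (2 * Real.pi) ∈ 𝓝[<] (2 * Real.pi) := Ioo_mem_nhdsLT (by positivity)
  have hval : ∀ y ∈ Ioo 0 (2 * Real.pi), ell (I * y) ∈ WW 1 (2 * Real.pi) ∧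
      gr F (ell (I * y)) = -exp (y * I) := by
    intro y hy
    have hy' : |y| < 2 * Real.pi := by rw [abs_of_pos hy.1]; exact hy.2
    have hm := KDe.mem_ax hy.1.ne' hy'
    refine ⟨hm.1, ?_⟩
    have hS : (I * y : ℂ) ∈ SS (2 * Real.pi) := by
      show |(I * (y : ℂ)).im| < 2 * Real.pi
      simpa using hy'
    have hc : conj (ell (I * y)) = ell (-(I * y)) := by
      rw [← ell_conj hS]
      congr 1
      simp
    have hl := law_ax KDe H G E hy.1.le hy.2
    have hd : ell (I * y) = ell (-(I * y)) + I * y := by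
      have := ell_sub (I * y)
      linear_combination this
    have hm2 := sig_conj H hm.1
    rw [hc] at hm2
    have n1 : F (ell (-(I * y))) ≠ 0 := E.ne _ hm2.1
    have e1 : exp (ell (I * y) / 2) = exp (ell (-(I * y)) / 2) * exp (I * y / 2) := by
      rw [← Complex.exp_add, hd]
      congr 1
      ring
    have e2 : exp (((1 / 2 : ℝ) : ℂ) * (I * y)) * exp (I * y / 2) = exp (y * I) := by
      rw [← Complex.exp_add]
      congr 1
      push_cast
      ring
    unfold gr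
    rw [hc, hl, e1, div_eq_iff (mul_ne_zero n1 (Complex.exp_ne_zero _))]
    linear_combination -(F (ell (-(I * y))) * exp (ell (-(I * y)) / 2)) * e2
  have t1 : Tendsto (fun y : ℝ => gr F (ell (I * y))) (𝓝[<] (2 * Real.pi)) (𝓝 1) := by
    rw [Metric.tendsto_nhds]
    intro ε hε
    obtain ⟨M, hM⟩ := gr_lim H E hε
    have h1 := ell_bot.eventually (Filter.eventually_lt_atBot (-M))
    filter_upwards [h1, hI] with y hy hy2
    rw [dist_eq_norm]
    exact hM _ (hval y hy2).1 hy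
  have t2 : Tendsto (fun y : ℝ => gr F (ell (I * y))) (𝓝[<] (2 * Real.pi)) (𝓝 (-1)) := by
    have hc : Continuous fun y : ℝ => -exp (y * I) := by fun_prop
    have h5 := (hc.tendsto (2 * Real.pi)).mono_left (nhdsWithin_le_nhds (s := Iio (2 * Real.pi)))
    have h6 : -exp (((2 * Real.pi : ℝ) : ℂ) * I) = -1 := by
      push_cast
      rw [Complex.exp_two_pi_mul_I]
    simp only [h6] at h5
    refine h5.congr' ?_
    filter_upwards [hI] with y hy
    exact (hval y hy).2.symm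
  have := tendsto_nhds_unique t1 t2
  norm_num at this

end Vale.Agent.P097.H161
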