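import Vale.Agent.P097.H161.Kill0
import Vale.Agent.P097.H244.Ell

/-! # P097 / H161: the data `KD0` for `ell` (isotropic law, `m = 3`). -/

set_option linter.all false

open Complex Metric Filter Topology Set
open scoped ComplexConjugate

namespace Vale.Agent.P097.H161

open Vale.Agent.P097.H244

theorem re_mul_of {z w : ℂ} {r : ℝ} (h : z = (r : ℂ) * w) : z.re = r * w.re := by
  rw [h, Complex.re_ofReal_mul]

theorem scal_mem {s : ℂ} (hs : s ∈ SS (2 * Real.pi)) {t : ℝ} (ht : t ∈ Icc (0 : ℝ) 1) :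
    (t : ℂ) * s ∈ SS (2 * Real.pi) := by
  show |((t : ℂ) * s).im| < 2 * Real.pi
  rw [Complex.im_ofReal_mul, abs_mul, abs_of_nonneg ht.1]
  have h : |s.im| < 2 * Real.pi := hs
  nlinarith [abs_nonneg s.im, ht.1, ht.2]

theorem scal_PP {s : ℂ} (hs : s ∈ PP (2 * Real.pi)) {t : ℝ} (ht : t ∈ Ioo (0 : ℝ) 1) :
    (t : ℂ) * s ∈ PP (2 * Real.pi) := by
  refine ⟨?_, scal_mem hs.2 (Ioo_subset_Icc_self ht)⟩
  rw [Complex.re_ofReal_mul]
  exact mul_pos ht.1 hs.1

/-- derivative of `ell` along a ray -/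
theorem ray_deriv {s c : ℂ} (h0 : s ≠ 0) (hs : s ∈ SS (2 * Real.pi)) {t : ℝ}
    (ht : t ∈ Ioo (0 : ℝ) 1) :
    HasDerivAt (fun t : ℝ => (ell (0 + t * s) * c).re) (1 / t * (gg ((t : ℂ) * s) * c).re) t := by
  have hm := scal_mem hs (Ioo_subset_Icc_self ht)
  have htc : (t : ℂ) ≠ 0 := by exact_mod_cast ht.1.ne'
  have e : (0 : ℂ) + t * s = (t : ℂ) * s := by ring
  have hd : DifferentiableAt ℂ ell (0 + t * s) := by
    rw [e]; exact ell_dAt hm
  refine (hasDerivAt_re_line (c := c) hd).congr_deriv ?_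
  rw [e, (ell_deriv hm (mul_ne_zero htc h0)).deriv]
  refine re_mul_of ?_
  push_cast
  field_simp

theorem ray_cont0 {s c : ℂ} (hs : s ∈ SS (2 * Real.pi)) :
    ContinuousOn (fun t : ℝ => (ell (0 + t * s) * c).re) (Icc 0 1) := by
  intro t ht
  have hm := scal_mem hs ht
  have e : (0 : ℂ) + t * s = (t : ℂ) * s := by ring
  have hd : DifferentiableAt ℂ ell (0 + t * s) := by
    rw [e]; exact ell_dAt hm
  exact (hasDerivAt_re_line (c := c) hd).continuousAt.continuousWithinAt

theorem ray_end0 (s c : ℂ) : (fun t : ℝ => (ell (0 + t * s) * c).re) 1 -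
    (fun t : ℝ => (ell (0 + t * s) * c).re) 0 = (ell s * c).re := by
  simp only [Complex.ofReal_one, one_mul, Complex.ofReal_zero, zero_mul, add_zero, zero_add]
  rw [ell_zero, zero_mul, Complex.zero_re, sub_zero]

theorem ell_neg_re {s : ℂ} (hs : s ∈ PP (2 * Real.pi)) : (ell (-s)).re < 0 := by
  have h0 : s ≠ 0 := by
    rintro rfl; exact absurd hs.1 (by simp)
  have hm : -s ∈ SS (2 * Real.pi) := neg_mem hs.2
  have h := seg_gt (c := 0) (ray_cont0 (c := -1) hm)
    (fun t ht => ray_deriv (c := -1) (neg_ne_zero.2 h0) hm ht) ?_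
  · rw [ray_end0] at h
    simpa using h
  · intro t ht
    have h1 := gg_neg_re (scal_PP hs ht)
    have e : (t : ℂ) * -s = -((t : ℂ) * s) := by ring
    rw [e, mul_neg_one, Complex.neg_re]
    exact mul_pos (by have := ht.1; positivity) (by linarith)

theorem ell_ax {y : ℝ} (h0 : y ≠ 0) (h1 : |y| < 2 * Real.pi) : (ell (I * y)).re < 0 := by
  have hm : (I * y : ℂ) ∈ SS (2 * Real.pi) := by
    show |(I * (y : ℂ)).im| < 2 * Real.pi
    simpa using h1
  have h := seg_gt (c := 0) (ray_cont0 (c := -1) hm)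
    (fun t ht => ray_deriv (c := -1) (by simp [h0]) hm ht) ?_
  · rw [ray_end0] at h
    simpa using h
  · intro t ht
    have h2 : |t * y| < 2 * Real.pi := by
      rw [abs_mul, abs_of_pos ht.1]
      nlinarith [abs_nonneg y, ht.1, ht.2]
    have h1 := gg_ax (mul_ne_zero ht.1.ne' h0) h2
    have e : (t : ℂ) * (I * y) = I * ((t * y : ℝ) : ℂ) := by push_cast; ring
    rw [e, mul_neg_one, Complex.neg_re]
    exact mul_pos (by have := ht.1; positivity) (by linarith)

theorem ell_ctr {s : ℂ} (hs : s ∈ PP (2 * Real.pi)) :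
    0 < ((ell s + ell (-s)) * conj s).re := by
  have h0 : s ≠ 0 := by
    rintro rfl; exact absurd hs.1 (by simp)
  have hm : -s ∈ SS (2 * Real.pi) := neg_mem hs.2
  rw [add_mul, Complex.add_re, ← ray_end0, ← ray_end0]
  have := seg_gt (c := 0)
    ((ray_cont0 (c := conj s) hs.2).add (ray_cont0 (c := conj s) hm))
    (fun t ht => (ray_deriv (c := conj s) h0 hs.2 ht).add
      (ray_deriv (c := conj s) (neg_ne_zero.2 h0) hm ht)) ?_
  · simp only [Pi.add_apply] at this
    linarith
  · intro t ht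
    have h1 := gg_ctr (scal_PP hs ht)
    have e : (gg ((t : ℂ) * s) + gg (-((t : ℂ) * s))) * conj ((t : ℂ) * s) =
        (t : ℂ) * (gg ((t : ℂ) * s) * conj s + gg ((t : ℂ) * (-s)) * conj s) := by
      rw [map_mul, Complex.conj_ofReal, mul_neg]; ring
    rw [e, Complex.re_ofReal_mul, Complex.add_re] at h1
    have h3 := (pos_iff_pos_of_mul_pos h1).1 ht.1
    rw [← mul_add]
    exact mul_pos (by have := ht.1; positivity) h3

theorem ell_der {s : ℂ} (hs : s ∈ PP (2 * Real.pi)) : 1 / 2 < (deriv ell s).re := by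
  have h0 : s ≠ 0 := by
    rintro rfl; exact absurd hs.1 (by simp)
  rw [(ell_deriv hs.2 h0).deriv]
  have hl : ∀ t ∈ Icc (0 : ℝ) 1,
      HasDerivAt (fun t : ℝ => (gg (0 + t * s) * s⁻¹).re)
        ((deriv gg (0 + t * s) * s * s⁻¹).re) t := by
    intro t ht
    refine hasDerivAt_re_line ?_
    have e : (0 : ℂ) + t * s = (t : ℂ) * s := by ring
    rw [e]
    exact (gg_diff _ (scal_mem hs.2 ht)).differentiableAt
      ((isOpen_SS _).mem_nhds (scal_mem hs.2 ht))
  have := seg_gt (c := 1 / 2) (fun t ht => (hl t ht).continuousAt.continuousWithinAt)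
    (fun t ht => hl t (Ioo_subset_Icc_self ht)) ?_
  · simp only [Complex.ofReal_one, one_mul, Complex.ofReal_zero, zero_mul, zero_add, gg_zero,
      Complex.zero_re, sub_zero, ← div_eq_mul_inv, zero_div] at this
    exact this
  · intro t ht
    have e : (0 : ℂ) + t * s = (t : ℂ) * s := by ring
    have h1 := gg_der_re (scal_PP hs ht)
    rw [e, mul_assoc, mul_inv_cancel₀ h0, mul_one]
    exact h1

theorem KDe : KD0 ell 1 (2 * Real.pi) where
  hκ := one_pos
  hL := by positivity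
  an := fun s hs => (ell_dAt hs).differentiableWithinAt
  v0 := ell_zero
  dif := by
    intro s _
    rw [ell_sub]
    simp
  cj := fun s hs => ell_conj hs
  der := fun s hs => ell_der hs
  neg := fun s hs => ell_neg_re hs
  ctr := fun s hs => ell_ctr hs
  ax := fun y h0 h1 => ell_ax h0 h1

end Vale.Agent.P097.H161
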