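import Vale.Agent.P097.H161.Asy
import Vale.Agent.P097.H244.K5

/-! # P097 / ALG-K3, `m = 3`: no pencil law at an isotropic end. -/

set_option linter.all false

open Complex Metric Filter Topology Set
open scoped ComplexConjugate

namespace Vale.Agent.P097.H161

open Vale.Agent.P097.H244 Vale.Agent.P097.H402.Rat

theorem vI3_eq : ∀ᶠ s in 𝓝 (0 : ℂ), vI 3 s = ell (6 * s) := by
  have hpi := Real.pi_pos
  have hc : ContinuousAt (fun s : ℂ => (6 : ℂ) * s) 0 := by fun_prop
  have h0 : Tendsto (fun s : ℂ => (6 : ℂ) * s) (𝓝 0) (𝓝 0) := by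
    have := hc.tendsto
    rwa [mul_zero] at this
  have h1 : ∀ᶠ z in 𝓝 (0 : ℂ), z ∈ SS (2 * Real.pi) :=
    (isOpen_SS _).mem_nhds (by show |(0 : ℂ).im| < _; simpa using hpi)
  have h2 : ContinuousAt ell 0 := (ell_dAt (by show |(0 : ℂ).im| < _; simpa using hpi)).continuousAt
  have h4 : ∀ᶠ z in 𝓝 (0 : ℂ), |(ell z).im| < Real.pi := by
    have h5 : ContinuousAt (fun s => |(ell s).im|) 0 :=
      (continuous_abs.comp Complex.continuous_im).continuousAt.comp h2
    have h6 : |(ell 0).im| < Real.pi := by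
      rw [ell_zero]; simpa using Real.pi_pos
    exact h5.eventually_lt continuousAt_const h6
  filter_upwards [h0.eventually h1, h0.eventually h4] with s hs hs2
  have e0 : ((3 : ℂ) - ((3 : ℝ) : ℂ)) * s = 0 := by push_cast; ring
  have e1 : ((3 : ℂ) + ((3 : ℝ) : ℂ)) * s = 6 * s := by push_cast; ring
  rw [vI, e0, e1, Ex_same, Ex_same, Ex_zero, div_one, ← exp_ell hs]
  exact Complex.log_exp (by linarith [(abs_lt.1 hs2).1]) (abs_lt.1 hs2).2.le

theorem ki3_three (f : ℂ → ℂ) : ¬ LawI 3 f := by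
  intro h
  have hv := vI3_eq
  have hn : Tendsto (fun s : ℂ => -s) (𝓝 0) (𝓝 0) := by
    simpa using (continuous_neg (G := ℂ)).tendsto 0
  have hd : Tendsto (fun z : ℂ => z / 6) (𝓝 0) (𝓝 0) := by
    have hc : ContinuousAt (fun z : ℂ => z / 6) 0 := by fun_prop
    have := hc.tendsto
    rwa [zero_div] at this
  refine kill3 h.an h.ne h.refl ?_
  filter_upwards [hd.eventually h.chord, hd.eventually hv, hd.eventually (hn.eventually hv)]
    with z h1 h2 h3
  have e1 : (6 : ℂ) * (z / 6) = z := by ring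
  have e2 : (6 : ℂ) * (-(z / 6)) = -z := by ring
  have e3 : (3 : ℂ) * (z / 6) = ((1 / 2 : ℝ) : ℂ) * z := by push_cast; ring
  rw [e1] at h2
  rw [e2] at h3
  rw [h2, h3, e3] at h1
  exact h1

end Vale.Agent.P097.H161
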