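import Vale.Agent.P097.H244.Kill3

/-! # P097 / H161: the abstract kill (H244) without the limit at infinity.
`KD0` = `H244.KD` without the conditions at the ends of the strip; everything up to the law on the
imaginary axis. -/

set_option linter.all false

open Complex Metric Filter Topology Set
open scoped ComplexConjugate

namespace Vale.Agent.P097.H161

open Vale.Agent.P097.H244

structure KD0 (v : ℂ → ℂ) (κ L : ℝ) : Prop where
  hκ : 0 < κ
  hL : 0 < L
  an : DifferentiableOn ℂ v (SS L)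
  v0 : v 0 = 0
  dif : ∀ s ∈ SS L, v s - v (-s) = κ * s
  cj : ∀ s ∈ SS L, v (conj s) = conj (v s)
  der : ∀ s ∈ PP L, κ / 2 < (deriv v s).re
  neg : ∀ s ∈ PP L, (v (-s)).re < 0
  ctr : ∀ s ∈ PP L, 0 < ((v s + v (-s)) * conj s).re
  ax : ∀ y : ℝ, y ≠ 0 → |y| < L → (v (I * y)).re < 0

namespace KD0

variable {v : ℂ → ℂ} {κ L : ℝ}

theorem dAt (K : KD0 v κ L) {s : ℂ} (hs : s ∈ SS L) : DifferentiableAt ℂ v s :=
  (K.an s hs).differentiableAt ((isOpen_SS L).mem_nhds hs)

theorem cAt (K : KD0 v κ L) {s : ℂ} (hs : s ∈ SS L) : ContinuousAt v s :=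
  (K.dAt hs).continuousAt

/-- basic lower bound along a segment whose interior lies in the half strip -/
theorem low (K : KD0 v κ L) {p d : ℂ} (h0 : ∀ t ∈ Icc (0 : ℝ) 1, p + t * d ∈ SS L)
    (h1 : ∀ t ∈ Ioo (0 : ℝ) 1, 0 < (p + t * d).re) :
    κ / 2 * ‖d‖ ^ 2 ≤ ((v (p + d) - v p) * conj d).re := by
  have h := seg_ge (φ := fun t : ℝ => (v (p + t * d) * conj d).re)
    (φ' := fun t : ℝ => (deriv v (p + t * d) * d * conj d).re) (c := κ / 2 * ‖d‖ ^ 2) ?_ ?_ ?_
  · simpa [sub_mul] using h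
  · intro t ht
    exact (hasDerivAt_re_line (K.dAt (h0 t ht))).continuousAt.continuousWithinAt
  · intro t ht
    exact hasDerivAt_re_line (K.dAt (h0 t (Ioo_subset_Icc_self ht)))
  · intro t ht
    have h2 := K.der (p + t * d) ⟨h1 t ht, h0 t (Ioo_subset_Icc_self ht)⟩
    have h3 : deriv v (p + t * d) * d * conj d = deriv v (p + t * d) * ((‖d‖ ^ 2 : ℝ) : ℂ) := by
      rw [mul_assoc, Complex.mul_conj, Complex.normSq_eq_norm_sq]
    rw [h3, Complex.re_mul_ofReal]
    exact mul_le_mul_of_nonneg_right h2.le (by positivity)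

theorem lip0 (K : KD0 v κ L) {p d : ℂ} (h0 : ∀ t ∈ Icc (0 : ℝ) 1, p + t * d ∈ SS L)
    (h1 : ∀ t ∈ Ioo (0 : ℝ) 1, 0 < (p + t * d).re) :
    κ / 2 * ‖d‖ ≤ ‖v (p + d) - v p‖ := by
  rcases eq_or_ne d 0 with hd | hd
  · simp [hd]
  have h := K.low h0 h1
  have h2 : ((v (p + d) - v p) * conj d).re ≤ ‖v (p + d) - v p‖ * ‖d‖ := by
    refine (Complex.re_le_norm _).trans ?_
    rw [norm_mul, RCLike.norm_conj]
  have h3 : 0 < ‖d‖ := norm_pos_iff.2 hd
  nlinarith

theorem lip (K : KD0 v κ L) {s t : ℂ} (hs : s ∈ PP L) (ht : t ∈ PP L) :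
    κ / 2 * ‖s - t‖ ≤ ‖v s - v t‖ := by
  have h : ∀ r ∈ Icc (0 : ℝ) 1, t + r * (s - t) ∈ PP L := by
    intro r hr
    obtain ⟨hr0, hr1⟩ := hr
    obtain ⟨h1, h2⟩ := hs
    obtain ⟨h3, h4⟩ := ht
    rw [abs_lt] at h2 h4
    constructor
    · simp only [add_re, mul_re, sub_re, ofReal_re, ofReal_im, zero_mul, sub_zero]
      rcases eq_or_lt_of_le hr0 with h | h
      · subst h; simpa using h3
      · nlinarith [mul_pos h h1, mul_nonneg (sub_nonneg.2 hr1) h3.le]
    · simp only [add_im, mul_im, sub_im, ofReal_re, ofReal_im, zero_mul, add_zero]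
      rw [abs_lt]
      constructor <;>
        nlinarith [mul_nonneg hr0 (by linarith : 0 ≤ s.im + L),
          mul_nonneg hr0 (by linarith : 0 ≤ L - s.im),
          mul_nonneg (sub_nonneg.2 hr1) (by linarith : 0 ≤ t.im + L),
          mul_nonneg (sub_nonneg.2 hr1) (by linarith : 0 ≤ L - t.im), K.hL, h2.1, h2.2, h4.1, h4.2]
  have := K.lip0 (p := t) (d := s - t) (fun r hr => PP_sub (h r hr))
    (fun r hr => (h r (Ioo_subset_Icc_self hr)).1)
  simpa using this

theorem ray (K : KD0 v κ L) {s : ℂ} (hs : s ∈ PP L) :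
    (∀ r ∈ Icc (0 : ℝ) 1, (0 : ℂ) + r * s ∈ SS L) ∧ ∀ r ∈ Ioo (0 : ℝ) 1, 0 < ((0 : ℂ) + r * s).re := by
  obtain ⟨h1, h2⟩ := hs
  constructor
  · intro r hr
    show |((0 : ℂ) + r * s).im| < L
    have : ((0 : ℂ) + r * s).im = r * s.im := by simp
    rw [this, abs_mul, abs_of_nonneg hr.1]
    nlinarith [abs_nonneg s.im, hr.2, hr.1]
  · intro r hr
    have : ((0 : ℂ) + r * s).re = r * s.re := by simp
    rw [this]
    exact mul_pos hr.1 h1

theorem lipz (K : KD0 v κ L) {s : ℂ} (hs : s ∈ PP L) : κ / 2 * ‖s‖ ≤ ‖v s‖ := by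
  have := K.lip0 (K.ray hs).1 (K.ray hs).2
  simpa [K.v0] using this

/-- the imaginary part of `v` dominates -/
theorem imv (K : KD0 v κ L) {s : ℂ} (hs : s ∈ PP L) :
    κ / 2 * s.im ^ 2 ≤ (v s).im * s.im := by
  have h0 : ∀ t ∈ Icc (0 : ℝ) 1, (s.re : ℂ) + t * (s.im * I) ∈ SS L := by
    intro t ht
    show |((s.re : ℂ) + t * (s.im * I)).im| < L
    have : ((s.re : ℂ) + t * (s.im * I)).im = t * s.im := by simp
    rw [this, abs_mul, abs_of_nonneg ht.1]
    have := hs.2
    nlinarith [abs_nonneg s.im, ht.2, ht.1]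
  have h1 : ∀ t ∈ Ioo (0 : ℝ) 1, 0 < ((s.re : ℂ) + t * (s.im * I)).re := by
    intro t ht
    simpa using hs.1
  have h := K.low h0 h1
  have h2 : (s.re : ℂ) + s.im * I = s := Complex.re_add_im s
  rw [h2] at h
  have h3 : (v (s.re : ℂ)).im = 0 := by
    have h4 := K.cj (s.re : ℂ) (by show |((s.re : ℂ)).im| < L; simpa using K.hL)
    rw [Complex.conj_ofReal] at h4
    have := congrArg Complex.im h4
    rw [Complex.conj_im] at this
    linarith
  have h5 : ((v s - v (s.re : ℂ)) * conj ((s.im : ℂ) * I)).re = (v s).im * s.im := by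
    simp [h3]
  rw [h5] at h
  have h6 : ‖(s.im : ℂ) * I‖ ^ 2 = s.im ^ 2 := by simp
  rw [h6] at h
  exact h

theorem imabs (K : KD0 v κ L) {s : ℂ} (hs : s ∈ PP L) : κ / 2 * |s.im| ≤ |(v s).im| := by
  have h := K.imv hs
  rcases eq_or_ne s.im 0 with h0 | h0
  · simp [h0]
  have h1 : 0 < |s.im| := abs_pos.2 h0
  have h2 : (v s).im * s.im ≤ |(v s).im| * |s.im| := by
    rw [← abs_mul]; exact le_abs_self _
  have h3 : s.im ^ 2 = |s.im| ^ 2 := (sq_abs _).symm
  rw [h3] at h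
  nlinarith

/-- closure lemma -/
theorem cl (K : KD0 v κ L) {s : ℕ → ℂ} (hs : ∀ n, s n ∈ PP L) {z : ℂ}
    (hz : Tendsto (fun n => v (s n)) atTop (𝓝 z)) (h1 : |z.im| < κ * L / 2) (h2 : 0 ≤ z.re)
    (h3 : z ≠ 0) : ∃ p ∈ PP L, Tendsto s atTop (𝓝 p) ∧ v p = z := by
  have hκ := K.hκ
  have hc : CauchySeq s := by
    rw [Metric.cauchySeq_iff']
    intro ε hε
    obtain ⟨N, hN⟩ := Metric.cauchySeq_iff'.1 hz.cauchySeq (κ / 2 * ε) (by positivity)
    refine ⟨N, fun n hn => ?_⟩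
    have h4 := hN n hn
    rw [dist_eq_norm] at h4 ⊢
    have h5 := K.lip (hs n) (hs N)
    by_contra h6
    push Not at h6
    nlinarith
  obtain ⟨p, hp⟩ := cauchySeq_tendsto_of_complete hc
  have him : κ / 2 * |p.im| ≤ |z.im| := by
    refine le_of_tendsto_of_tendsto'
      (((Complex.continuous_im.tendsto p).comp hp).abs.const_mul (κ / 2))
      ((Complex.continuous_im.tendsto z).comp hz).abs (fun n => K.imabs (hs n))
  have hpS : p ∈ SS L := by
    show |p.im| < L
    by_contra h6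
    push Not at h6
    nlinarith
  have hre : 0 ≤ p.re := ge_of_tendsto' ((Complex.continuous_re.tendsto p).comp hp)
    (fun n => (hs n).1.le)
  have hvp : v p = z := tendsto_nhds_unique ((K.cAt hpS).tendsto.comp hp) hz
  refine ⟨p, ⟨?_, hpS⟩, hp, hvp⟩
  rcases eq_or_lt_of_le hre with h | h
  · exfalso
    have hpe : p = I * (p.im : ℂ) := by
      apply Complex.ext <;> simp [← h]
    rcases eq_or_ne p.im 0 with h0 | h0
    · rw [hpe, h0] at hvp
      simp [K.v0] at hvp
      exact h3 hvp.symm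
    · have := K.ax p.im h0 hpS
      rw [← hpe, hvp] at this
      linarith
  · exact h

theorem surj (K : KD0 v κ L) {V : ℂ} (hV : V ∈ WW κ L) : ∃ s ∈ PP L, v s = -V := by
  have hκ := K.hκ
  have hL := K.hL
  set W' : Set ℂ := {z : ℂ | 0 < z.re} ∩ {z : ℂ | |z.im| < κ * L / 2} with hW'
  have hconv : Convex ℝ W' := by
    apply (convex_halfSpace_re_gt 0).inter
    have : {z : ℂ | |z.im| < κ * L / 2} = {z : ℂ | z.im < κ * L / 2} ∩ {z : ℂ | -(κ * L / 2) < z.im} := by
      ext z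
      simp only [mem_setOf_eq, mem_inter_iff, abs_lt]
      tauto
    rw [this]
    exact (convex_halfSpace_im_lt _).inter (convex_halfSpace_im_gt _)
  have hopen : IsOpen (v '' PP L) := by
    rw [isOpen_iff_mem_nhds]
    rintro _ ⟨s, hs, rfl⟩
    have hd : HasStrictDerivAt v (deriv v s) s :=
      ((K.an.analyticAt ((isOpen_SS L).mem_nhds (PP_sub hs))).hasStrictDerivAt)
    have hne : deriv v s ≠ 0 := by
      intro h
      have := K.der s hs
      rw [h] at this
      simp at this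
      linarith
    rw [← hd.map_nhds_eq hne]
    exact Filter.image_mem_map ((isOpen_PP L).mem_nhds hs)
  have hsub : W' ⊆ v '' PP L := by
    apply hconv.isPreconnected.subset_of_closure_inter_subset hopen
    · -- nonempty
      have hx : ((L : ℝ) : ℂ) ∈ PP L := ⟨by simpa using hL, by simpa using hL⟩
      refine ⟨v (L : ℂ), ⟨?_, ?_⟩, _, hx, rfl⟩
      · have h := K.low (K.ray hx).1 (K.ray hx).2
        simp only [zero_add, K.v0, sub_zero, Complex.conj_ofReal, Complex.norm_real,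
          Complex.re_mul_ofReal, Real.norm_eq_abs, sq_abs] at h
        show 0 < (v (L : ℂ)).re
        have : 0 < κ / 2 * L ^ 2 := by positivity
        nlinarith
      · have h4 := K.cj (L : ℂ) (PP_sub hx)
        rw [Complex.conj_ofReal] at h4
        have := congrArg Complex.im h4
        rw [Complex.conj_im] at this
        have h5 : (v (L : ℂ)).im = 0 := by linarith
        show |(v (L : ℂ)).im| < κ * L / 2
        rw [h5, abs_zero]
        positivity
    · rintro z ⟨hz, hzW⟩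
      obtain ⟨u, hu, hlim⟩ := mem_closure_iff_seq_limit.1 hz
      choose s hs hsu using hu
      have hlim' : Tendsto (fun n => v (s n)) atTop (𝓝 z) := by
        simpa [hsu] using hlim
      obtain ⟨p, hp, -, hvp⟩ := K.cl hs hlim' hzW.2 (le_of_lt hzW.1) (by
        rintro rfl
        have : (0 : ℝ) < (0 : ℂ).re := hzW.1
        simp at this)
      exact ⟨p, hp, hvp⟩
  obtain ⟨s, hs, h⟩ := hsub (show -V ∈ W' from ⟨by simpa using hV.1, by
    show |(-V).im| < κ * L / 2
    rw [Complex.neg_im, abs_neg]; exact hV.2⟩)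
  exact ⟨s, hs, h⟩

end KD0

theorem KD0.exists_inv {v : ℂ → ℂ} {κ L : ℝ} (K : KD0 v κ L) : ∃ σ, Inv v κ L σ := by
  have : ∀ V : ℂ, ∃ s, V ∈ WW κ L → (s ∈ PP L ∧ v s = -V) := by
    intro V
    by_cases h : V ∈ WW κ L
    · obtain ⟨s, hs, h2⟩ := K.surj h
      exact ⟨s, fun _ => ⟨hs, h2⟩⟩
    · exact ⟨0, fun h' => absurd h' h⟩
  choose σ hσ using this
  exact ⟨σ, fun V hV => (hσ V hV).1, fun V hV => (hσ V hV).2⟩


namespace KD0

variable {v : ℂ → ℂ} {κ L : ℝ} {σ : ℂ → ℂ}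

theorem T_eq (K : KD0 v κ L) (H : Inv v κ L σ) {V : ℂ} (hV : V ∈ WW κ L) :
    TT v σ V = -V - κ * σ V := by
  have h := K.dif (σ V) (PP_sub (H.mem V hV))
  rw [H.eq V hV] at h
  show v (-σ V) = _
  linear_combination -h

theorem lipV (K : KD0 v κ L) (H : Inv v κ L σ) {V U : ℂ} (hV : V ∈ WW κ L) (hU : U ∈ WW κ L) :
    κ / 2 * ‖σ V - σ U‖ ≤ ‖V - U‖ := by
  have h := K.lip (H.mem V hV) (H.mem U hU)
  rw [H.eq V hV, H.eq U hU] at h
  rwa [show -V - -U = -(V - U) by ring, norm_neg] at h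

theorem lipzV (K : KD0 v κ L) (H : Inv v κ L σ) {V : ℂ} (hV : V ∈ WW κ L) :
    κ / 2 * ‖σ V‖ ≤ ‖V‖ := by
  have h := K.lipz (H.mem V hV)
  rwa [H.eq V hV, norm_neg] at h

theorem Tim (K : KD0 v κ L) (H : Inv v κ L σ) {V : ℂ} (hV : V ∈ WW κ L) :
    |(TT v σ V).im| ≤ |V.im| := by
  have hκ := K.hκ
  have h1 := K.imv (H.mem V hV)
  rw [H.eq V hV, Complex.neg_im] at h1
  have h2 := K.imabs (H.mem V hV)
  rw [H.eq V hV, Complex.neg_im, abs_neg] at h2
  have h3 : (TT v σ V).im = -V.im - κ * (σ V).im := by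
    rw [K.T_eq H hV]; simp
  rw [h3]
  set t := (σ V).im
  set q := V.im
  -- -q t ≥ κ/2 t², |t| κ/2 ≤ |q|
  rcases le_total 0 q with hq | hq
  · have ht : t ≤ 0 := by
      by_contra h
      push Not at h
      nlinarith [mul_pos h h, mul_nonneg hq h.le]
    rw [abs_of_nonneg hq] at h2 ⊢
    rw [abs_of_nonpos ht] at h2
    rw [abs_le]
    constructor <;> nlinarith
  · have ht : 0 ≤ t := by
      by_contra h
      push Not at h
      nlinarith [mul_pos_of_neg_of_neg h h, mul_nonneg_of_nonpos_of_nonpos hq h.le]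
    rw [abs_of_nonpos hq] at h2 ⊢
    rw [abs_of_nonneg ht] at h2
    rw [abs_le]
    constructor <;> nlinarith

theorem Tmem (K : KD0 v κ L) (H : Inv v κ L σ) {V : ℂ} (hV : V ∈ WW κ L) :
    TT v σ V ∈ WW κ L :=
  ⟨K.neg _ (H.mem V hV), (K.Tim H hV).trans_lt hV.2⟩

theorem sq_identity (a b : ℂ) : ‖a‖ ^ 2 - ‖b‖ ^ 2 = ((a + b) * conj (a - b)).re := by
  rw [← Complex.normSq_eq_norm_sq, ← Complex.normSq_eq_norm_sq]
  simp [Complex.normSq_apply]
  ring

theorem ctr_norm (K : KD0 v κ L) {s : ℂ} (hs : s ∈ PP L) : ‖v (-s)‖ < ‖v s‖ := by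
  have h1 := K.ctr s hs
  have h2 := K.dif s (PP_sub hs)
  have h3 := sq_identity (v s) (v (-s))
  rw [h2] at h3
  have h4 : ((v s + v (-s)) * conj ((κ : ℂ) * s)).re = κ * ((v s + v (-s)) * conj s).re := by
    rw [map_mul, Complex.conj_ofReal,
      show (v s + v (-s)) * ((κ : ℂ) * conj s) = (κ : ℂ) * ((v s + v (-s)) * conj s) by ring,
      Complex.re_ofReal_mul]
  rw [h4] at h3
  have h5 : 0 < κ * ((v s + v (-s)) * conj s).re := mul_pos K.hκ h1
  have h6 : ‖v (-s)‖ ^ 2 < ‖v s‖ ^ 2 := by linarith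
  exact lt_of_pow_lt_pow_left₀ 2 (norm_nonneg _) h6

theorem Tnorm (K : KD0 v κ L) (H : Inv v κ L σ) {V : ℂ} (hV : V ∈ WW κ L) :
    ‖TT v σ V‖ < ‖V‖ := by
  have h := ctr_norm K (H.mem V hV)
  rwa [H.eq V hV, norm_neg] at h

theorem Tne (K : KD0 v κ L) (H : Inv v κ L σ) {V : ℂ} (hV : V ∈ WW κ L) : TT v σ V ≠ 0 := by
  intro h
  have := (K.Tmem H hV).1
  rw [h] at this
  simp at this

theorem it_mem (K : KD0 v κ L) (H : Inv v κ L σ) {V : ℂ} (hV : V ∈ WW κ L) (n : ℕ) :
    (TT v σ)^[n] V ∈ WW κ L := by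
  induction n with
  | zero => simpa using hV
  | succ n ih => rw [Function.iterate_succ_apply']; exact K.Tmem H ih

theorem it_im (K : KD0 v κ L) (H : Inv v κ L σ) {V : ℂ} (hV : V ∈ WW κ L) (n : ℕ) :
    |((TT v σ)^[n] V).im| ≤ |V.im| := by
  induction n with
  | zero => simp
  | succ n ih =>
    rw [Function.iterate_succ_apply']
    exact (K.Tim H (K.it_mem H hV n)).trans ih

theorem it_anti (K : KD0 v κ L) (H : Inv v κ L σ) {V : ℂ} (hV : V ∈ WW κ L) :
    Antitone (fun n => ‖(TT v σ)^[n] V‖) := by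
  apply antitone_nat_of_succ_le
  intro n
  simp only [Function.iterate_succ_apply']
  exact (K.Tnorm H (K.it_mem H hV n)).le

/-- all orbits tend to `0` -/
theorem orbit (K : KD0 v κ L) (H : Inv v κ L σ) {V : ℂ} (hV : V ∈ WW κ L) :
    Tendsto (fun n => (TT v σ)^[n] V) atTop (𝓝 0) := by
  have hκ := K.hκ
  set a : ℕ → ℝ := fun n => ‖(TT v σ)^[n] V‖ with ha
  have hanti : Antitone a := K.it_anti H hV
  have hbdd : BddBelow (range a) := ⟨0, by rintro _ ⟨n, rfl⟩; exact norm_nonneg _⟩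
  have hlim := tendsto_atTop_ciInf hanti hbdd
  set ρ := ⨅ n, a n with hρ
  have hρ0 : 0 ≤ ρ := le_ciInf fun n => norm_nonneg _
  rcases eq_or_lt_of_le hρ0 with h0 | h0
  · rw [tendsto_zero_iff_norm_tendsto_zero, h0]
    exact hlim
  exfalso
  set p : ℕ → ℂ := fun n => (TT v σ)^[n] V with hp
  have hpc : ∀ n, p n ∈ closedBall (0 : ℂ) ‖V‖ := by
    intro n
    rw [mem_closedBall_zero_iff]
    have := hanti (Nat.zero_le n)
    simpa [ha] using this
  obtain ⟨P, -, φ, hφ, hP⟩ := (isCompact_closedBall (0 : ℂ) ‖V‖).tendsto_subseq hpc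
  have hPn : ‖P‖ = ρ := tendsto_nhds_unique hP.norm (hlim.comp hφ.tendsto_atTop)
  have hPim : |P.im| < κ * L / 2 := by
    refine lt_of_le_of_lt (le_of_tendsto' ((Complex.continuous_im.tendsto P).comp hP).abs
      (fun n => ?_)) hV.2
    exact K.it_im H hV (φ n)
  have hPre : P.re ≤ 0 := le_of_tendsto' ((Complex.continuous_re.tendsto P).comp hP)
    (fun n => (K.it_mem H hV (φ n)).1.le)
  obtain ⟨s, hs, hσs, hvs⟩ := K.cl (s := fun n => σ (p (φ n))) (z := -P)
    (fun n => H.mem _ (K.it_mem H hV (φ n)))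
    (by
      have : (fun n => v (σ (p (φ n)))) = fun n => -p (φ n) := by
        funext n
        exact H.eq _ (K.it_mem H hV (φ n))
      rw [this]
      exact hP.neg)
    (by rw [Complex.neg_im, abs_neg]; exact hPim) (by rw [Complex.neg_re]; linarith)
    (by
      intro h
      rw [neg_eq_zero] at h
      rw [h, norm_zero] at hPn
      linarith)
  have h1 : Tendsto (fun n => v (-σ (p (φ n)))) atTop (𝓝 (v (-s))) := by
    have hms : -s ∈ SS L := by
      show |(-s).im| < L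
      rw [Complex.neg_im, abs_neg]; exact hs.2
    exact (K.cAt hms).tendsto.comp hσs.neg
  have h2 : ∀ n, v (-σ (p (φ n))) = p (φ n + 1) := by
    intro n
    simp only [hp, Function.iterate_succ_apply']
    rfl
  simp only [h2] at h1
  have h3 : ‖v (-s)‖ = ρ := by
    refine tendsto_nhds_unique h1.norm ?_
    exact hlim.comp (tendsto_atTop_mono (fun n => Nat.le_succ _) hφ.tendsto_atTop)
  have h4 := ctr_norm K hs
  rw [h3, hvs, norm_neg, hPn] at h4
  exact lt_irrefl _ h4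

/-- analyticity of the inverse branch -/
theorem dσ (K : KD0 v κ L) (H : Inv v κ L σ) {V : ℂ} (hV : V ∈ WW κ L) :
    DifferentiableAt ℂ σ V := by
  have hκ := K.hκ
  have hW := (isOpen_WW κ L).mem_nhds hV
  have hcont : ContinuousAt σ V := by
    rw [Metric.continuousAt_iff']
    intro ε hε
    have : ∀ᶠ U in 𝓝 V, U ∈ WW κ L ∧ ‖U - V‖ < κ / 2 * ε := by
      refine (Filter.eventually_of_mem hW fun U h => h).and ?_
      have := Metric.ball_mem_nhds V (show 0 < κ / 2 * ε by positivity)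
      filter_upwards [this] with U hU
      rwa [mem_ball_iff_norm] at hU
    filter_upwards [this] with U hU
    rw [dist_eq_norm]
    have h := K.lipV H hU.1 hV
    by_contra h6
    push Not at h6
    nlinarith [hU.2]
  have hs := H.mem V hV
  have hd : HasDerivAt (fun s => -v s) (-deriv v (σ V)) (σ V) := (K.dAt (PP_sub hs)).hasDerivAt.neg
  have hne : -deriv v (σ V) ≠ 0 := by
    intro h
    have := K.der _ hs
    rw [neg_eq_zero] at h
    rw [h] at this
    simp at this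
    linarith
  refine (HasDerivAt.of_local_left_inverse hcont hd hne ?_).differentiableAt
  filter_upwards [hW] with U hU
  rw [H.eq U hU, neg_neg]

theorem dT (K : KD0 v κ L) (H : Inv v κ L σ) {V : ℂ} (hV : V ∈ WW κ L) :
    DifferentiableAt ℂ (TT v σ) V := by
  have : TT v σ =ᶠ[𝓝 V] fun V => -V - κ * σ V := by
    filter_upwards [(isOpen_WW κ L).mem_nhds hV] with U hU
    exact K.T_eq H hU
  rw [this.differentiableAt_iff]
  exact (differentiableAt_id.neg).sub ((K.dσ H hV).const_mul _)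

theorem dit (K : KD0 v κ L) (H : Inv v κ L σ) {V : ℂ} (hV : V ∈ WW κ L) (n : ℕ) :
    DifferentiableAt ℂ ((TT v σ)^[n]) V := by
  induction n with
  | zero => exact differentiableAt_id
  | succ n ih =>
    have : (TT v σ)^[n + 1] = fun V => TT v σ ((TT v σ)^[n] V) := by
      funext V; exact Function.iterate_succ_apply' _ _ _
    rw [this]
    exact DifferentiableAt.comp (g := TT v σ) V (K.dT H (K.it_mem H hV n)) ih

end KD0


variable {v : ℂ → ℂ} {κ L w r : ℝ} {σ f : ℂ → ℂ}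

theorem step_small (K : KD0 v κ L) (H : Inv v κ L σ) (G : Germ v κ w r f) {V : ℂ}
    (hV : V ∈ WW κ L) (hr : ‖V‖ < r) : f V = exp (w * σ V) * f (TT v σ V) := by
  have h1 := G.ch (σ V) ((K.lipzV H hV).trans_lt hr)
  rw [H.eq V hV, G.odd V (mem_ball_zero_iff.2 hr)] at h1
  show f V = exp (w * σ V) * f (v (-σ V))
  linear_combination -h1

theorem GG_succ (K : KD0 v κ L) (H : Inv v κ L σ) (G : Germ v κ w r f) {V : ℂ}
    (hV : V ∈ WW κ L) {n : ℕ} (hr : ‖(TT v σ)^[n] V‖ < r) :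
    GG v σ f w (n + 1) V = GG v σ f w n V := by
  unfold GG
  rw [Finset.sum_range_succ, mul_add, Complex.exp_add, Function.iterate_succ_apply', mul_assoc,
    ← step_small K H G (K.it_mem H hV n) hr]

theorem GG_const (K : KD0 v κ L) (H : Inv v κ L σ) (G : Germ v κ w r f) {V : ℂ}
    (hV : V ∈ WW κ L) {n m : ℕ} (hnm : n ≤ m) (hr : ‖(TT v σ)^[n] V‖ < r) :
    GG v σ f w m V = GG v σ f w n V := by
  induction m, hnm using Nat.le_induction with
  | base => rfl
  | succ m hm ih =>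
    rw [GG_succ K H G hV ((K.it_anti H hV hm).trans_lt hr), ih]

theorem GG_shift (V : ℂ) (n : ℕ) :
    GG v σ f w (n + 1) V = exp (w * σ V) * GG v σ f w n (TT v σ V) := by
  unfold GG
  rw [Finset.sum_range_succ', mul_add, Complex.exp_add]
  simp only [Function.iterate_succ_apply, Function.iterate_zero, id_eq]
  ring

theorem GG_diff (K : KD0 v κ L) (H : Inv v κ L σ) (G : Germ v κ w r f) {V : ℂ}
    (hV : V ∈ WW κ L) {n : ℕ} (hr : ‖(TT v σ)^[n] V‖ < r) :
    DifferentiableAt ℂ (GG v σ f w n) V := by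
  unfold GG
  refine DifferentiableAt.mul ?_ ?_
  · refine DifferentiableAt.cexp (DifferentiableAt.const_mul ?_ _)
    refine DifferentiableAt.fun_sum fun j _ => ?_
    exact DifferentiableAt.comp (g := σ) V (K.dσ H (K.it_mem H hV j)) (K.dit H hV j)
  · exact DifferentiableAt.comp (g := f) V (G.d _ (mem_ball_zero_iff.2 hr)) (K.dit H hV n)

theorem exists_ext (K : KD0 v κ L) (H : Inv v κ L σ) (G : Germ v κ w r f) :
    ∃ F, Ext v σ f κ L w r F := by
  have hr := G.hr
  have hex : ∀ V : ℂ, ∃ N : ℕ, V ∈ WW κ L → ‖(TT v σ)^[N] V‖ < r := by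
    intro V
    by_cases hV : V ∈ WW κ L
    · have := (K.orbit H hV).norm
      rw [norm_zero] at this
      obtain ⟨N, hN⟩ := (this.eventually_lt_const hr).exists
      exact ⟨N, fun _ => hN⟩
    · exact ⟨0, fun h => absurd h hV⟩
  choose N hN using hex
  set F : ℂ → ℂ := fun V => if ‖V‖ < r then f V else GG v σ f w (N V) V with hF
  -- on the region, every good index computes `F`
  have hFG : ∀ V ∈ WW κ L, ∀ n, ‖(TT v σ)^[n] V‖ < r → F V = GG v σ f w n V := by
    intro V hV n hn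
    have hN' : ∀ m, ‖(TT v σ)^[m] V‖ < r → GG v σ f w m V = GG v σ f w n V := by
      intro m hm
      rcases le_total m n with h | h
      · exact (GG_const K H G hV h hm).symm
      · exact GG_const K H G hV h hn
    simp only [hF]
    split_ifs with h
    · have := hN' 0 (by simpa using h)
      rw [← this]
      simp [GG]
    · exact hN' _ (hN V hV)
  have hsmall : ∀ V ∈ ball (0 : ℂ) r, F V = f V := by
    intro V hV
    simp only [hF]
    rw [if_pos (mem_ball_zero_iff.1 hV)]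
  refine ⟨F, hsmall, ?_, ?_, ?_, ?_⟩
  · intro V hV
    have hn := hN V hV
    have hcont : ContinuousAt ((TT v σ)^[N V]) V := (K.dit H hV (N V)).continuousAt
    have h1 : ∀ᶠ U in 𝓝 V, ‖(TT v σ)^[N V] U‖ < r := hcont.norm.eventually_lt continuousAt_const hn
    have h2 : F =ᶠ[𝓝 V] GG v σ f w (N V) := by
      filter_upwards [h1, (isOpen_WW κ L).mem_nhds hV] with U hU hUW
      exact hFG U hUW _ hU
    rw [h2.differentiableAt_iff]
    exact GG_diff K H G hV hn
  · intro V hV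
    have h2 : F =ᶠ[𝓝 V] f := by
      filter_upwards [isOpen_ball.mem_nhds hV] with U hU
      exact hsmall U hU
    rw [h2.differentiableAt_iff]
    exact G.d V hV
  · intro V hV
    have hn := hN _ (K.Tmem H hV)
    rw [hFG (TT v σ V) (K.Tmem H hV) _ hn,
      hFG V hV (N (TT v σ V) + 1) (by rw [Function.iterate_succ_apply]; exact hn), GG_shift]
  · intro V hV
    rw [hFG V hV _ (hN V hV)]
    unfold GG
    refine mul_ne_zero (Complex.exp_ne_zero _) ?_
    refine G.ne _ (mem_ball_zero_iff.2 (hN V hV)) ?_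
    have h3 := (K.it_mem H hV (N V)).1
    intro h4
    rw [h4] at h3
    simp at h3

theorem KD0.mem_ax (K : KD0 v κ L) {y : ℝ} (h0 : y ≠ 0) (h1 : |y| < L) :
    v (I * y) ∈ WW κ L ∧ v (I * y) - v (-(I * y)) = κ * (I * y) := by
  have hS : (I * y : ℂ) ∈ SS L := by
    show |(I * (y : ℂ)).im| < L
    simpa using h1
  have hd := K.dif _ hS
  refine ⟨⟨K.ax y h0 h1, ?_⟩, hd⟩
  have hc := K.cj _ hS
  have h2 : conj (I * (y : ℂ)) = -(I * y) := by simp
  rw [h2] at hc
  rw [hc] at hd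
  have := congrArg Complex.im hd
  have h3 : (v (I * y)).im = κ * y / 2 := by
    simp at this
    linarith
  rw [h3, abs_div, abs_mul, abs_of_pos K.hκ, abs_of_pos (by norm_num : (0 : ℝ) < 2)]
  have := mul_lt_mul_of_pos_left h1 K.hκ
  linarith

/-- the law on the imaginary axis -/
theorem law_ax (K : KD0 v κ L) (H : Inv v κ L σ) (G : Germ v κ w r f) {F : ℂ → ℂ}
    (E : Ext v σ f κ L w r F) {y : ℝ} (h0 : 0 ≤ y) (h1 : y < L) :
    F (v (I * y)) = -(exp (w * (I * y)) * F (v (-(I * y)))) := by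
  set S : Set ℂ := (fun y : ℝ => I * (y : ℂ)) '' Ico 0 L with hS
  have hSc : IsPreconnected S := by
    refine isPreconnected_Ico.image _ ?_
    fun_prop
  have hSS : ∀ s ∈ S, s ∈ SS L ∧ -s ∈ SS L := by
    rintro _ ⟨y, hy, rfl⟩
    constructor
    · show |(I * (y : ℂ)).im| < L
      simpa [abs_of_nonneg hy.1] using hy.2
    · show |(-(I * (y : ℂ))).im| < L
      simpa [abs_of_nonneg hy.1] using hy.2
  have hFan : ∀ V, V ∈ WW κ L ∨ V ∈ ball (0 : ℂ) r → AnalyticAt ℂ F V := by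
    intro V hV
    have hop : IsOpen (WW κ L ∪ ball (0 : ℂ) r) := (isOpen_WW κ L).union isOpen_ball
    have hd : DifferentiableOn ℂ F (WW κ L ∪ ball (0 : ℂ) r) := by
      rintro U (hU | hU)
      · exact (E.dW U hU).differentiableWithinAt
      · exact (E.dB U hU).differentiableWithinAt
    exact hd.analyticAt (hop.mem_nhds hV)
  have hvan : ∀ s ∈ SS L, AnalyticAt ℂ v s := fun s hs =>
    K.an.analyticAt ((isOpen_SS L).mem_nhds hs)
  have hval : ∀ s ∈ S, (v s ∈ WW κ L ∨ v s ∈ ball (0 : ℂ) r) ∧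
      (v (-s) ∈ WW κ L ∨ v (-s) ∈ ball (0 : ℂ) r) := by
    rintro _ ⟨y, hy, rfl⟩
    rcases eq_or_lt_of_le hy.1 with h | h
    · subst h
      have : v (I * ((0 : ℝ) : ℂ)) ∈ ball (0 : ℂ) r := by
        simp [K.v0, G.hr]
      refine ⟨Or.inr this, Or.inr ?_⟩
      simpa using this
    · have h2 : |y| < L := by rw [abs_of_pos h]; exact hy.2
      refine ⟨Or.inl (K.mem_ax h.ne' h2).1, Or.inl ?_⟩
      have := (K.mem_ax (y := -y) (neg_ne_zero.2 h.ne') (by rwa [abs_neg])).1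
      have h3 : (I * ((-y : ℝ) : ℂ)) = -(I * y) := by push_cast; ring
      rwa [h3] at this
  have hP : AnalyticOnNhd ℂ (fun s => F (v s)) S := fun s hs =>
    AnalyticAt.comp (g := F) (hFan _ (hval s hs).1) (hvan s (hSS s hs).1)
  have hQ : AnalyticOnNhd ℂ (fun s => -(exp (w * s) * F (v (-s)))) S := by
    intro s hs
    have h2 : AnalyticAt ℂ (fun s => v (-s)) s :=
      AnalyticAt.comp (g := v) (hvan _ (hSS s hs).2) analyticAt_id.neg
    have h3 : AnalyticAt ℂ (fun s => F (v (-s))) s :=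
      AnalyticAt.comp (g := F) (f := fun s => v (-s)) (hFan _ (hval s hs).2) h2
    have h4 : AnalyticAt ℂ (fun s : ℂ => exp (w * s)) s := by fun_prop
    exact (h4.mul h3).neg
  have h00 : (0 : ℂ) ∈ S := ⟨0, ⟨le_rfl, K.hL⟩, by simp⟩
  have hev : (fun s => F (v s)) =ᶠ[𝓝 0] fun s => -(exp (w * s) * F (v (-s))) := by
    have hv0 : Tendsto v (𝓝 0) (𝓝 0) := by
      have := (hvan 0 (hSS 0 h00).1).continuousAt.tendsto
      rwa [K.v0] at this
    have hv0' : Tendsto (fun s => v (-s)) (𝓝 0) (𝓝 0) := by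
      have : Tendsto (fun s : ℂ => -s) (𝓝 0) (𝓝 0) := by
        simpa using (continuous_neg (G := ℂ)).tendsto 0
      exact hv0.comp this
    have hb := isOpen_ball.mem_nhds (mem_ball_self G.hr : (0 : ℂ) ∈ ball (0 : ℂ) r)
    have hs : ∀ᶠ s in 𝓝 (0 : ℂ), κ / 2 * ‖s‖ < r := by
      have : Tendsto (fun s : ℂ => κ / 2 * ‖s‖) (𝓝 0) (𝓝 0) := by
        have hc : Continuous fun s : ℂ => κ / 2 * ‖s‖ := by fun_prop
        have := hc.tendsto 0
        rwa [norm_zero, mul_zero] at this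
      exact this.eventually_lt_const G.hr
    filter_upwards [hv0.eventually hb, hv0'.eventually hb, hs] with s h1 h2 h3
    rw [E.small _ h1, E.small _ h2]
    exact G.ch s h3
  have := hP.eqOn_of_preconnected_of_eventuallyEq hQ hSc h00 hev
  exact this ⟨y, ⟨h0, h1⟩, rfl⟩


end Vale.Agent.P097.H161
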